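import Vale.Agent.P202.Final

/-! Lech's inequality `e(R) ≤ e(S)` for flat local maps of Noetherian local rings containing a
field, in all dimensions. -/

namespace Vale.Agent.Results.P202.EqualChar

open IsLocalRing Filter Topology

/-- the Krull dimension as a natural number (it is finite for Noetherian local rings) -/
noncomputable def dimN (A : Type*) [CommRing A] : ℕ := ((ringKrullDim A).unbotD 0).toNat

/-- the sequence `d! * length (A / m ^ N) / N ^ d` with `d = dim A` -/
noncomputable def hsSeq (A : Type*) [CommRing A] [IsLocalRing A] (N : ℕ) : ℝ :=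
  ((dimN A).factorial : ℝ) * ((Module.length A (A ⧸ maximalIdeal A ^ N)).toNat : ℝ) /
    (N : ℝ) ^ dimN A

/-- the Hilbert-Samuel multiplicity -/
noncomputable def mult (A : Type*) [CommRing A] [IsLocalRing A] : ℝ := limUnder atTop (hsSeq A)

theorem result (K R S : Type*) [Field K] [CommRing R] [IsLocalRing R] [IsNoetherianRing R]
    [Algebra K R] [CommRing S] [IsLocalRing S] [IsNoetherianRing S] [Algebra R S]
    [IsLocalHom (algebraMap R S)] [Module.Flat R S] :
    Tendsto (hsSeq R) atTop (𝓝 (mult R)) ∧ Tendsto (hsSeq S) atTop (𝓝 (mult S)) ∧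
      mult R ≤ mult S := by
  obtain ⟨d, hd⟩ := Vale.Agent.P202.exists_nat_dim R
  obtain ⟨D, hD⟩ := Vale.Agent.P202.exists_nat_dim S
  obtain ⟨eR, eS, hR, hS, h⟩ :=
    Vale.Agent.P202.lech_eqChar R S (Vale.Agent.P202.eqChar_of_field K R) hd hD
  have h1 : dimN R = d := by rw [dimN, hd]; rfl
  have h2 : dimN S = D := by rw [dimN, hD]; rfl
  have h3 : Tendsto (hsSeq R) atTop (𝓝 eR) := by
    refine hR.congr fun N => ?_
    simp only [hsSeq, h1, Vale.Agent.P202.cl, Vale.Agent.P202.rl_top]
  have h4 : Tendsto (hsSeq S) atTop (𝓝 eS) := by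
    refine hS.congr fun N => ?_
    simp only [hsSeq, h2, Vale.Agent.P202.cl, Vale.Agent.P202.rl_top]
  rw [mult, mult, h3.limUnder_eq, h4.limUnder_eq]
  exact ⟨h3, h4, h⟩

end Vale.Agent.Results.P202.EqualChar
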