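import Vale.Agent.P202.FinalM

/-! Lech's conjecture: `e(R) ≤ e(S)` for every flat local map of Noetherian local rings. -/

namespace Vale.Agent.Results.P202.Full

open IsLocalRing Filter Topology

/-- the Krull dimension as a natural number (it is finite for Noetherian local rings) -/
noncomputable def dimN (A : Type*) [CommRing A] : ℕ := ((ringKrullDim A).unbotD 0).toNat

/-- the sequence `d! * length (A / m ^ N) / N ^ d` with `d = dim A` -/
noncomputable def hsSeq (A : Type*) [CommRing A] [IsLocalRing A] (N : ℕ) : ℝ :=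
  ((dimN A).factorial : ℝ) * ((Module.length A (A ⧸ maximalIdeal A ^ N)).toNat : ℝ) /
    (N : ℝ) ^ dimN A

/-- the Hilbert-Samuel multiplicity -/
noncomputable def mult (A : Type*) [CommRing A] [IsLocalRing A] : ℝ := limUnder atTop (hsSeq A)

/-- the definition of the multiplicity makes sense for `A`: the dimension and the lengths are
finite and the limit exists -/
def WellDefined (A : Type*) [CommRing A] [IsLocalRing A] : Prop :=
  ringKrullDim A = (dimN A : ℕ) ∧ (∀ N : ℕ, Module.length A (A ⧸ maximalIdeal A ^ N) ≠ ⊤) ∧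
    Tendsto (hsSeq A) atTop (𝓝 (mult A))

theorem result (R S : Type*) [CommRing R] [IsLocalRing R] [IsNoetherianRing R]
    [CommRing S] [IsLocalRing S] [IsNoetherianRing S] [Algebra R S]
    [IsLocalHom (algebraMap R S)] [Module.Flat R S] :
    WellDefined R ∧ WellDefined S ∧ mult R ≤ mult S := by
  obtain ⟨d, hd⟩ := Vale.Agent.P202.exists_nat_dim R
  obtain ⟨D, hD⟩ := Vale.Agent.P202.exists_nat_dim S
  obtain ⟨eR, eS, hR, hS, h⟩ := Vale.Agent.P202.lech R S hd hD
  have h1 : dimN R = d := by rw [dimN, hd]; rfl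
  have h2 : dimN S = D := by rw [dimN, hD]; rfl
  have h3 : Tendsto (hsSeq R) atTop (𝓝 eR) := by
    refine hR.congr fun N => ?_
    simp only [hsSeq, h1, Vale.Agent.P202.cl, Vale.Agent.P202.rl_top]
  have h4 : Tendsto (hsSeq S) atTop (𝓝 eS) := by
    refine hS.congr fun N => ?_
    simp only [hsSeq, h2, Vale.Agent.P202.cl, Vale.Agent.P202.rl_top]
  have h5 : mult R = eR := h3.limUnder_eq
  have h6 : mult S = eS := h4.limUnder_eq
  refine ⟨⟨h1 ▸ hd, fun N => ?_, h5 ▸ h3⟩, ⟨h2 ▸ hD, fun N => ?_, h6 ▸ h4⟩, h5 ▸ h6 ▸ h⟩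
  · rw [← Vale.Agent.P202.rl_top]
    exact Vale.Agent.P202.rl_ne_top_of_prim ⟨N, le_rfl⟩
  · rw [← Vale.Agent.P202.rl_top]
    exact Vale.Agent.P202.rl_ne_top_of_prim ⟨N, le_rfl⟩

end Vale.Agent.Results.P202.Full
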